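import Vale.Agent.P207.N3.H266.HessT
import Vale.Agent.P207.N3.Top.Defs

/-!
# P207, line N3, package P12G (G1), part A: the Hessians of the Busemann functions along the
stable leaves

In the smooth alternative `(η, q) ↦ D² b_ξ (q)`, `ξ = line η q`, is smooth in `q`, all derivatives
are jointly continuous.
-/

open Set Filter Topology Metric MeasureTheory
open scoped ContDiff

noncomputable section

namespace Vale.Agent.P207.N3.H266

open Vale.Agent.P207.N3.H76 (pk tl e0 sg)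
open Vale.Agent.P207.N3.H722 (GeoIn HessIn)
open Vale.Agent.P207.N3.Ten (cj)

variable {Γ X B : Type} [Group Γ] [MetricSpace X] [ProperSpace X] [MulAction Γ X]
  [IsIsometricSMul Γ X] [TopologicalSpace B] [CompactSpace B] [T2Space B] [MulAction Γ B]
  [ContinuousConstSMul Γ B]
variable {L : Leaf Γ X B} {V : Type} [NormedAddCommGroup V] [NormedSpace ℝ V]
  [FiniteDimensional ℝ V] (I : GeoIn L V)

/-! ### the metric -/

theorem finrank_dual : Module.finrank ℝ (V →L[ℝ] ℝ) = Module.finrank ℝ V := by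
  rw [← (LinearMap.toContinuousLinearMap : (V →ₗ[ℝ] ℝ) ≃ₗ[ℝ] V →L[ℝ] ℝ).finrank_eq]
  exact Subspace.dual_finrank_eq

theorem G_bij (q : V) : Function.Bijective (I.G q) := by
  have h1 : Function.Injective (I.G q) := by
    rw [injective_iff_map_eq_zero]
    intro v hv
    by_contra h
    have h2 := I.G_pos q v h
    rw [hv] at h2
    exact lt_irrefl _ h2
  exact ⟨h1, (LinearMap.injective_iff_surjective_of_finrank_eq_finrank
    (f := (I.G q).toLinearMap) finrank_dual.symm).1 h1⟩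

theorem Ginv_smooth : ContDiff ℝ ∞ fun q => (I.G q).inverse := by
  rw [contDiff_iff_contDiffAt]
  intro q
  obtain ⟨e, he⟩ := isInvertible_of_bijective (G_bij I q)
  have h1 : ContDiffAt ℝ ∞ ContinuousLinearMap.inverse (I.G q) := by
    rw [← he]
    exact contDiffAt_map_inverse e
  exact h1.comp q I.G_smooth.contDiffAt

/-! ### the inverse metric of the horospheres -/

/-- the inner product -/
def ip : E2 →L[ℝ] E2 →L[ℝ] ℝ := innerSL ℝ

theorem ip_apply (v w : E2) : ip v w = inner ℝ v w := rfl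

/-- `C ↦ (l ↦ l ∘ C)` -/
def pcL : (V →L[ℝ] E2) →L[ℝ] (E2 →L[ℝ] ℝ) →L[ℝ] (V →L[ℝ] ℝ) :=
  (ContinuousLinearMap.compL ℝ V E2 ℝ).flip

/-- `l ↦ l ∘ C` -/
def pc (C : V →L[ℝ] E2) : (E2 →L[ℝ] ℝ) →L[ℝ] (V →L[ℝ] ℝ) := pcL C

omit [FiniteDimensional ℝ V] in
theorem pc_apply (C : V →L[ℝ] E2) (l : E2 →L[ℝ] ℝ) (v : V) : pc C l v = l (C v) := rfl

omit [FiniteDimensional ℝ V] in
theorem JC_pc {Z : Type} [TopologicalSpace Z] {E : Type} [NormedAddCommGroup E] [NormedSpace ℝ E]
    {S : Set (Z × E)} {C : Z → E → V →L[ℝ] E2} (h : JC C S) : JC (fun z u => pc (C z u)) S :=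
  JC.clm (F := V →L[ℝ] E2) (G := (E2 →L[ℝ] ℝ) →L[ℝ] (V →L[ℝ] ℝ)) pcL h

/-- the inverse metric of the horospheres, at the points of the slices -/
def hsf (x : X) (p : ℝ × E2) : E2 →L[ℝ] E2 :=
  (I.r₀ ^ 2) • (Cp I x p ∘L (I.G (I.S.A x p)).inverse ∘L pc (Cp I x p) ∘L ip)

theorem A_jc3 : JC I.S.A (univ ×ˢ (univ ×ˢ ball (0 : E2) 3)) :=
  I.S.A_jc.mono (isOpen_univ.prod (isOpen_univ.prod isOpen_ball))
    fun _ hp => ⟨mem_univ _, mem_univ _, mem_R3 I hp.2.2⟩

theorem Cp_jc3 (hinv : H459.InvThm) : JC (Cp I) (univ ×ˢ (univ ×ˢ ball (0 : E2) 3)) :=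
  (Cp_jc I hinv).mono (isOpen_univ.prod (isOpen_univ.prod isOpen_ball))
    fun _ hp => ⟨mem_univ _, mem_univ _, mem_R3 I hp.2.2⟩

theorem hsf_jc (hinv : H459.InvThm) : JC (hsf I) (univ ×ˢ (univ ×ˢ ball (0 : E2) 3)) := by
  have h1 := Cp_jc3 I hinv
  have h2 := (A_jc3 I).comp_contDiff (Ginv_smooth I)
  have h3 := JC_pc h1
  have h4 : JC (fun (_ : X) (_ : ℝ × E2) => ip) (univ ×ˢ (univ ×ˢ ball (0 : E2) 3)) :=
    JC.const h1.isOpen _
  exact (h1.clm_comp (h2.clm_comp (h3.clm_comp h4))).const_smul _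

theorem inner_pk (c : E3) (w : E2) : inner ℝ c (pk 0 w) = inner ℝ (tl c) w := by
  rw [PiLp.inner_apply, PiLp.inner_apply, Fin.sum_univ_three, Fin.sum_univ_two]
  simp

theorem inner_e0 (c : E3) : inner ℝ c e0 = c 0 := by
  rw [PiLp.inner_apply, Fin.sum_univ_three]
  simp [e0]

/-- the frame `z` is over the point of the slice -/
theorem isFr_of {x z : X} {u : E2} (hu : u ∈ ball (0 : E2) 3) (hem : L.em z = L.em x)
    (hep : L.ep z = L.e x u) : IsFr I x (L.lv z - L.lv x - bet I x u) u z := by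
  have h1 := I.line_eq z
  rw [hem, hep, ← line_A I x 0 hu] at h1
  obtain ⟨s, hs⟩ := (I.S.line_iff _ _ _).1 h1.symm
  have h2 := I.b_lv z
  rw [hem, hs, b_psi] at h2
  have h3 : s = L.lv z - L.lv x - bet I x u := by
    rw [bet, ← h2]
    ring
  refine ⟨hem, ?_, hep⟩
  rw [← h3, hs, A_psi I x s (mem_R3 I hu)]

theorem cj_eq (hinv : H459.InvThm) {x z : X} {s : ℝ} {u : E2} (hu : u ∈ ball (0 : E2) 3)
    (h : IsFr I x s u z) :
    cj (fderiv ℝ (L.τ z x) 0) (ContinuousLinearMap.id ℝ E2) = hsf I x (s, u) := by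
  ext1 w
  set D := fderiv ℝ (L.τ z x) 0 with hD
  set C := Cp I x (s, u) with hC
  have hr := I.r₀_pos.ne'
  set a := (I.G (I.S.A x (s, u))).inverse (pc C (ip w)) with ha
  have h1 : I.G (I.S.A x (s, u)) a = pc C (ip w) := apply_inverse (G_bij I _) _
  obtain ⟨c, hc⟩ := (I.E_bij z).2 a
  have h2 : ∀ c', inner ℝ c c' = inner ℝ w (C (I.E z c')) := by
    intro c'
    rw [← I.G_E z c c', h.ft, hc, h1]
    rfl
  have h3 : c 0 = 0 := by
    rw [← inner_e0, h2, hC, Cp_E0 I hinv hu h, inner_zero_right]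
  have h4 : I.r₀ • tl c = ContinuousLinearMap.adjoint D w := by
    refine ext_inner_right ℝ fun w' => ?_
    rw [ContinuousLinearMap.adjoint_inner_left, hD, ← Cp_E I hinv hu h, ← h2, inner_pk,
      real_inner_smul_left, real_inner_smul_right]
  have h5 : c = pk 0 (I.r₀ • ((I.r₀ ^ 2)⁻¹ • ContinuousLinearMap.adjoint D w)) := by
    rw [← h4, smul_smul, smul_smul]
    have e1 : I.r₀ * ((I.r₀ ^ 2)⁻¹ * I.r₀) = 1 := by field_simp
    rw [← mul_assoc] at e1
    rw [e1, one_smul]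
    conv_lhs => rw [← H76.pk_tl c, h3]
  have h6 : C a = (I.r₀ ^ 2)⁻¹ • D (ContinuousLinearMap.adjoint D w) := by
    rw [← hc, h5, hC, Cp_E I hinv hu h, map_smul]
  change D (ContinuousLinearMap.adjoint D w) = I.r₀ ^ 2 • C a
  rw [h6, smul_smul, mul_inv_cancel₀ (pow_ne_zero 2 hr), one_smul]

theorem hor_eq_hsf (hinv : H459.InvThm) (x : X) (t : ℝ) {u : E2} (hu : u ∈ ball (0 : E2) 3) :
    Ten.hor L (x, t) u = hsf I x (t - bet I x u, u) := by
  obtain ⟨z, hz⟩ := Ten.exists_pt (L := L) x (ball_subset_closedBall hu)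
  rw [Ten.hor_eq hz hu t]
  have h1 : IsFr I x (t - bet I x u) u (L.φ t z) := by
    have h2 := isFr_of I hu (x := x) (z := L.φ t z) (by rw [L.em_φ, hz.em])
      (by rw [Ten.ep_φ, hz.ep])
    rw [L.lv_φ, hz.lv] at h2
    have h3 : L.lv x + t - L.lv x - bet I x u = t - bet I x u := by ring
    rwa [h3] at h2
  exact cj_eq I hinv hu h1

/-! ### the integral -/

theorem bet_jc : JC (fun x (p : ℝ × E2) => bet I x p.2) (univ ×ˢ (univ ×ˢ ball (0 : E2) 3)) := by
  have h1 : JC (fun (_ : X) (p : ℝ × E2) => ((0, p.2) : ℝ × E2))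
      (univ ×ˢ (univ ×ˢ ball (0 : E2) 3)) :=
    (JC.const (A_jc3 I).isOpen 0).prodMk (JC.id (A_jc3 I).isOpen).snd
  have h2 := (A_jc3 I).comp' h1 fun p hp => ⟨mem_univ _, mem_univ _, hp.2.2⟩
  have h3 : JC (fun (x : X) q => I.b (L.em x) q) univ :=
    (I.b_jc.pullback L.em_cont).mono isOpen_univ fun _ _ => mem_univ _
  exact (h3.comp' h2 fun _ _ => mem_univ _).sub (JC.param' h2.isOpen L.lv_cont)

/-- the integral of the inverse metrics -/
def Rh (x : X) (p : ℝ × E2) : E2 →L[ℝ] E2 := Ten.Rr L (x, p.1 + bet I x p.2) p.2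

theorem Rh_eq (hinv : H459.InvThm) (x : X) (p : ℝ × E2) (hp : p.2 ∈ ball (0 : E2) 3) :
    Rh I x p = (p.1 + bet I x p.2) • ∫ σ in (0 : ℝ)..1,
      hsf I x ((p.1 + bet I x p.2) * σ - bet I x p.2, p.2) := by
  rw [Rh, Ten.Rr]
  simp only [hor_eq_hsf I hinv x _ hp]

theorem Rh_jc (hinv : H459.InvThm) : JC (Rh I) (univ ×ˢ (univ ×ˢ ball (0 : E2) 3)) := by
  set S : Set (X × (ℝ × E2)) := univ ×ˢ (univ ×ˢ ball (0 : E2) 3) with hS
  have hSo : IsOpen S := (A_jc3 I).isOpen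
  set T : Set ((X × ℝ) × (ℝ × E2)) := {p | (p.1.1, p.2) ∈ S} with hT
  have hTo : IsOpen T := hSo.preimage (by fun_prop)
  have hb := bet_jc I
  have hb' : JC (fun (q : X × ℝ) (p : ℝ × E2) => bet I q.1 p.2) T := hb.pullback continuous_fst
  have hs : JC (fun (_ : X × ℝ) (p : ℝ × E2) => p.1) T := (JC.id hTo).fst
  have hσ : JC (fun (q : X × ℝ) (_ : ℝ × E2) => q.2) T := JC.param' hTo continuous_snd
  have hi : JC (fun (q : X × ℝ) (p : ℝ × E2) =>
      (((p.1 + bet I q.1 p.2) * q.2 - bet I q.1 p.2, p.2) : ℝ × E2)) T :=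
    (((hs.add hb').mul hσ).sub hb').prodMk (JC.id hTo).snd
  have hf : JC (fun (q : X × ℝ) (p : ℝ × E2) => hsf I q.1 p) T :=
    (hsf_jc I hinv).pullback continuous_fst
  have h1 := hf.comp' hi fun p hp => ⟨mem_univ _, mem_univ _, hp.2.2⟩
  have h2 := JC.integral (a := 0) (b := 1) (T := T)
    (f := fun (q : X × ℝ) (p : ℝ × E2) =>
      hsf I q.1 ((p.1 + bet I q.1 p.2) * q.2 - bet I q.1 p.2, p.2)) h1
  have h3 := h2.mono hSo fun p hp t _ => hp
  refine (((JC.id hSo).fst.add hb).smul h3).congr fun p hp => ?_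
  exact Rh_eq I hinv p.1 p.2 hp.2.2

/-! ### the tensor at all levels -/

variable (M : Metr L)

/-- `D S⁻¹ Dᵀ` at the points of the slices -/
def Kh (x : X) (p : ℝ × E2) : E2 →L[ℝ] E2 := Ten.NN M x p.2 - Rh I x p

theorem NN_jc (hS : SmoothAlt (Ten.tens M)) : JC (Ten.NN M) (univ ×ˢ ball (0 : E2) 3) :=
  ⟨isOpen_univ.prod isOpen_ball, fun z => (hS.1 z).mono fun _ hu => hu.2, hS.2⟩

theorem Kh_jc (hinv : H459.InvThm) (hS : SmoothAlt (Ten.tens M)) :
    JC (Kh I M) (univ ×ˢ (univ ×ˢ ball (0 : E2) 3)) := by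
  have h1 : JC (fun (_ : X) (p : ℝ × E2) => p.2) (univ ×ˢ (univ ×ˢ ball (0 : E2) 3)) :=
    (JC.id (A_jc3 I).isOpen).snd
  exact ((NN_jc M hS).comp' h1 fun p hp => ⟨mem_univ _, hp.2.2⟩).sub (Rh_jc I hinv)

theorem Kh_eq {x z : X} {s : ℝ} {u : E2} (hu : u ∈ ball (0 : E2) 3)
    (h : IsFr I x s u z) : Kh I M x (s, u) = cj (fderiv ℝ (L.τ z x) 0) (Ten.Si M z) := by
  set T := s + bet I x u with hT
  have hlv : L.lv z = L.lv x + T := by
    rw [IsFr.lv I (mem_R3 I hu) h, hT]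
    ring
  set y := L.φ (-T) z with hy
  have hyz : L.φ T y = z := by rw [hy, ← L.φ_add, add_neg_cancel, L.φ_zero]
  have hP : Ten.IsPt L x u y :=
    ⟨by rw [hy, L.em_φ, h.em], by rw [hy, Ten.ep_φ, h.ep], by rw [hy, L.lv_φ, hlv]; ring⟩
  have hchain : ∀ t, fderiv ℝ (L.τ (L.φ t y) x) 0 = fderiv ℝ (L.τ y x) 0 ∘L Ten.Mf L y t := by
    intro t
    have h0 : L.ep (L.φ t y) = L.ep y := Ten.ep_φ L t y
    have h1 : L.τ (L.φ t y) y 0 = 0 := Ten.tau_zero_of_ep h0
    rw [Ten.fderiv_tau_trans (x := L.φ t y) (y := y) (z := x) (L.em_φ t y) hP.em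
      (Ten.dm_zero_of_ep h0) (by rw [h1]; exact hP.dm hu), h1]
    rfl
  have hcont : Continuous fun t => cj (Ten.Mf L y t) (ContinuousLinearMap.id ℝ E2) := by
    have h1 := Ten.Mf_cont M y
    have h2 : Continuous fun t => ContinuousLinearMap.adjoint (Ten.Mf L y t) :=
      Ten.adjL.continuous.comp h1
    exact h1.clm_comp (continuous_const.clm_comp h2)
  have h1 := Ten.cj_int M y T
  rw [hyz] at h1
  have h2 := hchain T
  rw [hyz] at h2
  rw [h2, Ten.cj_comp, h1, Ten.cj_sub, Ten.cj_integral _ (hcont.intervalIntegrable 0 T),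
    ← Ten.NN_eq M hP hu, Kh, Rh, Ten.Rr_eq]
  simp only
  congr 2
  funext t
  rw [← Ten.cj_comp, ← hchain t, Ten.hor_eq hP hu t]

/-! ### linear algebra -/

theorem adj_comp_apply (D D' : E2 →L[ℝ] E2) (h : D' ∘L D = ContinuousLinearMap.id ℝ E2) (y : E2) :
    ContinuousLinearMap.adjoint D (ContinuousLinearMap.adjoint D' y) = y := by
  have h1 := congrArg ContinuousLinearMap.adjoint h
  rw [ContinuousLinearMap.adjoint_comp] at h1
  have h2 : ContinuousLinearMap.adjoint (ContinuousLinearMap.id ℝ E2)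
      = ContinuousLinearMap.id ℝ E2 := ContinuousLinearMap.adjoint_id
  rw [h2] at h1
  exact DFunLike.congr_fun h1 y

theorem bij_of_inj {D : E2 →L[ℝ] E2} (h : Function.Injective D) : Function.Bijective D :=
  ⟨h, (LinearMap.injective_iff_surjective (f := D.toLinearMap)).1 h⟩

theorem cj_inj {D S S' : E2 →L[ℝ] E2} (hD : Function.Injective D)
    (hS : ∀ v, S (S' v) = v) : Function.Injective (cj D S') := by
  have hb := bij_of_inj hD
  have h2 : D ∘L D.inverse = ContinuousLinearMap.id ℝ E2 :=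
    (isInvertible_of_bijective hb).self_comp_inverse
  rw [injective_iff_map_eq_zero]
  intro y hy
  change D (S' (ContinuousLinearMap.adjoint D y)) = 0 at hy
  have h3 := hD (hy.trans (map_zero D).symm)
  have h4 : ContinuousLinearMap.adjoint D y = 0 := by
    rw [← hS (ContinuousLinearMap.adjoint D y), h3, map_zero]
  rw [← adj_comp_apply D.inverse D h2 y, h4, map_zero]

theorem cj_inverse {D S S' : E2 →L[ℝ] E2} (hD : Function.Injective D)
    (hS : ∀ v, S (S' v) = v) (hS' : ∀ v, S' (S v) = v) (a a' : E2) :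
    inner ℝ ((cj D S').inverse (D a)) (D a') = inner ℝ (S a) a' := by
  have hb := bij_of_inj hD
  have h1 : D.inverse ∘L D = ContinuousLinearMap.id ℝ E2 :=
    (isInvertible_of_bijective hb).inverse_comp_self
  set y := ContinuousLinearMap.adjoint D.inverse (S a) with hy
  have h2 : ContinuousLinearMap.adjoint D y = S a := adj_comp_apply D D.inverse h1 (S a)
  have h3 : cj D S' y = D a := by
    change D (S' (ContinuousLinearMap.adjoint D y)) = D a
    rw [h2, hS']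
  rw [← h3, inverse_apply (bij_of_inj (cj_inj hD hS)), ← ContinuousLinearMap.adjoint_inner_left,
    h2]

/-! ### the Hessians -/

/-- the second derivative of the Busemann function -/
def H2 (ξ : B) (q : V) : V →L[ℝ] V →L[ℝ] ℝ := fderiv ℝ (fderiv ℝ (I.b ξ)) q

theorem H2_jc : JC (H2 I) univ := I.b_jc.fderiv.fderiv

theorem b_contDiff (ξ : B) : ContDiff ℝ ∞ (I.b ξ) := by
  rw [contDiff_iff_contDiffAt]
  intro q
  exact I.b_jc.contDiffAt (mem_univ (ξ, q))

theorem H2_hasFDerivAt (ξ : B) (q : V) : HasFDerivAt (fderiv ℝ (I.b ξ)) (H2 I ξ q) q :=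
  (I.b_jc.fderiv.differentiableAt (mem_univ (ξ, q))).hasFDerivAt

theorem H2_symm (ξ : B) (q v w : V) : H2 I ξ q v w = H2 I ξ q w v := by
  have h := (b_contDiff I ξ).contDiffAt (x := q)
  refine h.isSymmSndFDerivAt ?_ v w
  rw [minSmoothness_of_isRCLikeNormedField]
  exact WithTop.coe_le_coe.2 (le_top : (2 : ℕ∞) ≤ ⊤)

theorem H2_add (ξ η : B) (q : V) :
    fderiv ℝ (fderiv ℝ (fun q => I.b ξ q + I.b η q)) q = H2 I ξ q + H2 I η q := by
  have h1 : fderiv ℝ (fun q => I.b ξ q + I.b η q) = fun q =>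
      fderiv ℝ (I.b ξ) q + fderiv ℝ (I.b η) q := by
    funext q
    exact fderiv_fun_add ((b_contDiff I ξ).differentiable (by simp) q)
      ((b_contDiff I η).differentiable (by simp) q)
  rw [h1]
  exact ((H2_hasFDerivAt I ξ q).add (H2_hasFDerivAt I η q)).fderiv

/-- `D² (b_ξ + b_η)` vanishes in the direction of the geodesic -/
theorem H2_vel (hinv : H459.InvThm) (ξ : B) (q : V) :
    (H2 I ξ q + H2 I (I.S.line ξ q) q) (I.vel ξ q) = 0 := by
  set η := I.S.line ξ q with hη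
  have h1 : HasDerivAt (fun t => I.S.psi ξ t q) (I.vel ξ q) 0 := by
    have := I.S.hasDerivAt_psi hinv ξ 0 q
    rwa [I.S.psi_zero] at this
  have h2 : HasFDerivAt (fun q => fderiv ℝ (I.b ξ) q + fderiv ℝ (I.b η) q)
      (H2 I ξ q + H2 I η q) (I.S.psi ξ 0 q) := by
    rw [I.S.psi_zero]
    exact (H2_hasFDerivAt I ξ q).add (H2_hasFDerivAt I η q)
  have h3 := h2.comp_hasDerivAt (0 : ℝ) h1
  refine h3.unique ((hasDerivAt_const (0 : ℝ) (0 : V →L[ℝ] ℝ)).congr_of_eventuallyEq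
    (Eventually.of_forall fun t => ?_))
  simp only [Function.comp]
  have h4 : I.S.line ξ (I.S.psi ξ t q) = η := line_psi I ξ t q
  rw [I.b_fderiv hinv, I.b_fderiv hinv, ← h4, I.vel_line hinv, map_neg, add_neg_cancel]

theorem hess_E (hinv : H459.InvThm) (hH : HessIn I M) (z : X) (c c' : E3) :
    (H2 I (L.em z) (I.S.ft z) + H2 I (L.ep z) (I.S.ft z)) (I.E z c) (I.E z c')
      = inner ℝ (Ten.Sf M z (tl c)) (tl c') := by
  set Q := H2 I (L.em z) (I.S.ft z) + H2 I (L.ep z) (I.S.ft z) with hQ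
  have h1 := hH.hess z (tl c) (tl c')
  rw [H2_add, ← hQ] at h1
  have h2 : Q (I.E z e0) = 0 := by
    have := H2_vel I hinv (L.em z) (I.S.ft z)
    rwa [I.line_eq, I.vel_eq hinv] at this
  have h3 : ∀ v, Q v (I.E z e0) = 0 := by
    intro v
    have h4 : Q v (I.E z e0) = Q (I.E z e0) v := by
      rw [hQ]
      simp only [add_apply]
      rw [H2_symm, H2_symm I (L.ep z)]
    rw [h4, h2]
    rfl
  have h5 : ∀ c : E3, I.E z c = c 0 • I.E z e0 + I.E z (pk 0 (tl c)) := by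
    intro c
    rw [← map_smul, ← map_add, ← H76.pk_zero_right, ← H76.pk_add, add_zero, zero_add, H76.pk_tl]
  have h6 : Ten.Sf M z (tl c) = M.U z (tl c) + M.U (L.flip z) (tl c) := rfl
  rw [h6, ← h1, h5 c, h5 c']
  simp only [map_add, map_smul, h2, h3, smul_zero, zero_add]

/-- **the formula for the Hessian** -/
theorem hess_slice (hinv : H459.InvThm) (hH : HessIn I M) (x : X) (s : ℝ) {u : E2}
    (hu : u ∈ ball (0 : E2) 3) (v w : V) :
    (H2 I (L.em x) (I.S.A x (s, u)) + H2 I (L.e x u) (I.S.A x (s, u))) v w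
      = I.r₀ ^ 2 * inner ℝ ((Kh I M x (s, u)).inverse (Cp I x (s, u) v)) (Cp I x (s, u) w) := by
  obtain ⟨z, h⟩ := exists_isFr I x s hu
  obtain ⟨c, rfl⟩ := (I.E_bij z).2 v
  obtain ⟨c', rfl⟩ := (I.E_bij z).2 w
  have hr := I.r₀_pos.ne'
  have h1 := hess_E I M hinv hH z c c'
  rw [h.em, h.ep, h.ft] at h1
  rw [h1]
  have h2 : ∀ c : E3, Cp I x (s, u) (I.E z c) = fderiv ℝ (L.τ z x) 0 (I.r₀⁻¹ • tl c) := by
    intro c
    rw [← Cp_E I hinv hu h, smul_smul, mul_inv_cancel₀ hr, one_smul]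
    have h5 : I.E z c = c 0 • I.E z e0 + I.E z (pk 0 (tl c)) := by
      rw [← map_smul, ← map_add, ← H76.pk_zero_right, ← H76.pk_add, add_zero, zero_add, H76.pk_tl]
    rw [h5, map_add, map_smul, Cp_E0 I hinv hu h, smul_zero, zero_add]
  rw [h2, h2, Kh_eq I M hu h, cj_inverse (fderiv_tau_inj I hinv hu h) (Ten.Sf_Si' M z)
    (Ten.Si_Sf' M z), map_smul, real_inner_smul_left, real_inner_smul_right]
  field_simp

theorem Kh_invertible (hinv : H459.InvThm) (x : X) (s : ℝ) {u : E2}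
    (hu : u ∈ ball (0 : E2) 3) : (Kh I M x (s, u)).IsInvertible := by
  obtain ⟨z, h⟩ := exists_isFr I x s hu
  rw [Kh_eq I M hu h]
  exact isInvertible_of_bijective (bij_of_inj (cj_inj (fderiv_tau_inj I hinv hu h)
    (Ten.Sf_Si' M z)))

/-- the Hessian of `b_{e x u}` at the point `A x (s, u)` -/
theorem hess_jc_slice (hinv : H459.InvThm) (hH : HessIn I M) (hS : SmoothAlt (Ten.tens M)) :
    JC (fun x (p : ℝ × E2) => H2 I (L.e x p.2) (I.S.A x p))
      (univ ×ˢ (univ ×ˢ ball (0 : E2) 3)) := by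
  have hC := Cp_jc3 I hinv
  have hK := JC_inverse (Kh_jc I M hinv hS) fun p hp => Kh_invertible I M hinv p.1 p.2.1 hp.2.2
  have hpc := JC_pc hC
  have hip : JC (fun (_ : X) (_ : ℝ × E2) => ip) (univ ×ˢ (univ ×ˢ ball (0 : E2) 3)) :=
    JC.const hC.isOpen _
  have h1 := (hpc.clm_comp (hip.clm_comp (hK.clm_comp hC))).const_smul (I.r₀ ^ 2)
  have h2 : JC (fun (x : X) q => H2 I (L.em x) q) univ :=
    ((H2_jc I).pullback L.em_cont).mono isOpen_univ fun _ _ => mem_univ _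
  have h3 := h2.comp' (A_jc3 I) fun _ _ => mem_univ _
  refine (h1.sub h3).congr fun p hp => ?_
  ext v w
  have h4 := hess_slice I M hinv hH p.1 p.2.1 hp.2.2 v w
  simp only [add_apply] at h4
  simp only [sub_apply, smul_apply, smul_eq_mul, ContinuousLinearMap.comp_apply, pc_apply,
    ip_apply]
  rw [← h4]
  simp only [Prod.mk.eta]
  ring

/-! ### from frames to the boundary -/

/-- a family over the boundary is smooth if it is smooth near the foot points of the frames -/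
theorem JC.of_frames {W : Type} [NormedAddCommGroup W] [NormedSpace ℝ W] {f : B → V → W}
    (h : ∀ x₀ : X, ∃ S : Set (X × V), (x₀, I.S.ft x₀) ∈ S ∧ JC (fun x q => f (L.em x) q) S) :
    JC f univ := by
  choose S hm hS using h
  refine ⟨isOpen_univ, fun ξ q _ => ?_, fun k => ?_⟩
  · obtain ⟨x, h1, h2, -⟩ := I.exists_frame ξ q
    subst h1 h2
    exact ((hS x).contDiffAt (hm x)).contDiffWithinAt
  · rw [continuousOn_univ]
    have h1 : Continuous fun p : (B × V) × Unit => iteratedFDeriv ℝ k (f p.1.1) p.1.2 := by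
      refine I.S.continuous_of_frames (F := fun ξ q _ => iteratedFDeriv ℝ k (f ξ) q) ?_
      have h2 : Continuous fun x : X => iteratedFDeriv ℝ k (f (L.em x)) (I.S.ft x) := by
        rw [continuous_iff_continuousAt]
        intro x
        have h3 : ContinuousAt (fun p : X × V => iteratedFDeriv ℝ k (f (L.em p.1)) p.2)
            (x, I.S.ft x) := ((hS x).cont k).continuousAt ((hS x).isOpen.mem_nhds (hm x))
        have h4 : Continuous fun x : X => ((x, I.S.ft x) : X × V) :=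
          continuous_id.prodMk I.S.ft_cont
        exact ContinuousAt.comp (f := fun x : X => ((x, I.S.ft x) : X × V)) h3 h4.continuousAt
      simp only [I.em_eq]
      exact h2.comp continuous_fst
    exact h1.comp (continuous_id.prodMk continuous_const : Continuous fun p : B × V => (p, ()))

/-- **the Hessians along the stable leaves** -/
theorem hess_line_jc (hinv : H459.InvThm) (hH : HessIn I M) (hS : SmoothAlt (Ten.tens M)) :
    JC (fun η q => H2 I (I.S.line η q) q) univ := by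
  refine JC.of_frames I fun x₀ => ?_
  obtain ⟨T, g, h1, h2, h3, h4⟩ := I.S.chart hinv x₀
  set T' : Set (X × V) := T ∩ (fun p : X × V => g p.1 p.2) ⁻¹' {z | z.2 ∈ ball (0 : E2) 3}
    with hT'
  have hO : IsOpen T' :=
    h1.continuousOn.isOpen_inter_preimage h1.isOpen (isOpen_ball.preimage continuous_snd)
  refine ⟨T', ⟨h2, ?_⟩, ?_⟩
  · change (g x₀ (I.S.ft x₀)).2 ∈ ball (0 : E2) 3
    rw [h3]
    exact Ten.mem_ball0
  · have h5 : JC g T' := h1.mono hO fun p hp => hp.1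
    have h6 := (hess_jc_slice I M hinv hH hS).comp' h5 fun p hp => ⟨mem_univ _, mem_univ _, hp.2⟩
    refine h6.congr fun p hp => ?_
    have h7 := (h4 p hp.1).2
    have h8 := line_A I p.1 (g p.1 p.2).1 hp.2
    rw [Prod.mk.eta, h7] at h8
    rw [h7, h8]

end Vale.Agent.P207.N3.H266
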