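import Vale.Agent.P207.N3.H266.HessA
import Vale.Agent.P207.N3.H289.JCJ
import Vale.Agent.P207.N3.H459.Inv

/-!
# P207, line N3, package P12G (G1), part B: the Hessian function

In the smooth alternative there is a smooth function `H (q, l)`, `l ≠ 0` a covector at `q`, such
that `D² b_ξ (q) = H (q, D b_ξ (q))` for all `ξ`.
-/

open Set Filter Topology Metric
open scoped ContDiff

noncomputable section

set_option linter.unusedSectionVars false

namespace Vale.Agent.P207.N3.H266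

open Vale.Agent.P207.N3.H76 (pk tl e0 sg)
open Vale.Agent.P207.N3.H722 (GeoIn HessIn)
open Vale.Agent.P207.N3.H459 (invThm)

variable {Γ X B : Type} [Group Γ] [MetricSpace X] [ProperSpace X] [MulAction Γ X]
  [IsIsometricSMul Γ X] [TopologicalSpace B] [CompactSpace B] [T2Space B] [MulAction Γ B]
  [ContinuousConstSMul Γ B]
variable {L : Leaf Γ X B} {V : Type} [NormedAddCommGroup V] [NormedSpace ℝ V]
  [FiniteDimensional ℝ V] (I : GeoIn L V)

/-! ### covectors -/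

/-- the square of the norm of a covector -/
def n2 (z : V × (V →L[ℝ] ℝ)) : ℝ := z.2 ((I.G z.1).inverse z.2)

/-- the norm of a covector -/
def nr (z : V × (V →L[ℝ] ℝ)) : ℝ := √(n2 I z)

/-- the unit vector of a covector -/
def uv (z : V × (V →L[ℝ] ℝ)) : V := (nr I z)⁻¹ • (I.G z.1).inverse z.2

theorem G_inv (q : V) (l : V →L[ℝ] ℝ) : I.G q ((I.G q).inverse l) = l :=
  apply_inverse (G_bij I q) l

theorem n2_eq (z : V × (V →L[ℝ] ℝ)) :
    n2 I z = I.G z.1 ((I.G z.1).inverse z.2) ((I.G z.1).inverse z.2) := by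
  rw [G_inv]
  rfl

theorem n2_pos {z : V × (V →L[ℝ] ℝ)} (hz : z.2 ≠ 0) : 0 < n2 I z := by
  rw [n2_eq]
  refine I.G_pos _ _ fun h => hz ?_
  rw [← G_inv I z.1 z.2, h, map_zero]

theorem nr_pos {z : V × (V →L[ℝ] ℝ)} (hz : z.2 ≠ 0) : 0 < nr I z := Real.sqrt_pos.2 (n2_pos I hz)

theorem nr_mul {z : V × (V →L[ℝ] ℝ)} (hz : z.2 ≠ 0) : nr I z * nr I z = n2 I z :=
  Real.mul_self_sqrt (n2_pos I hz).le

theorem uv_unit {z : V × (V →L[ℝ] ℝ)} (hz : z.2 ≠ 0) : I.G z.1 (uv I z) (uv I z) = 1 := by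
  have h1 := (nr_pos I hz).ne'
  rw [uv, map_smul, map_smul, smul_apply, ← n2_eq, ← nr_mul I hz, smul_eq_mul, smul_eq_mul]
  field_simp

theorem G_uv {z : V × (V →L[ℝ] ℝ)} (hz : z.2 ≠ 0) : nr I z • I.G z.1 (uv I z) = z.2 := by
  rw [uv, map_smul, smul_smul, mul_inv_cancel₀ (nr_pos I hz).ne', one_smul, G_inv]

theorem Ginv_cont : Continuous fun z : V × (V →L[ℝ] ℝ) => (I.G z.1).inverse z.2 :=
  ((Ginv_smooth I).continuous.comp continuous_fst).clm_apply continuous_snd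

theorem n2_cont : Continuous (n2 I) := continuous_snd.clm_apply (Ginv_cont I)

theorem nr_cont : Continuous (nr I) := (n2_cont I).sqrt

theorem uv_cont : ContinuousOn (uv I) {z | z.2 ≠ 0} :=
  ((nr_cont I).continuousOn.inv₀ fun _ hz => (nr_pos I hz).ne').smul (Ginv_cont I).continuousOn

/-! ### the point at infinity of a covector -/

open Classical in
/-- the point at infinity of a covector -/
def Xi (z : V × (V →L[ℝ] ℝ)) : B :=
  if h : ∃ ξ, I.vel ξ z.1 = uv I z then h.choose else L.em (Classical.choice L.nonempty)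

theorem vel_Xi {z : V × (V →L[ℝ] ℝ)} (hz : z.2 ≠ 0) : I.vel (Xi I z) z.1 = uv I z := by
  have h := I.exists_vel invThm (uv_unit I hz)
  rw [Xi, dif_pos h]
  exact h.choose_spec

theorem vel_map_closed : IsClosedEmbedding fun p : B × V => (p.2, I.vel p.1 p.2) := by
  have hc : Continuous fun p : B × V => (p.2, I.vel p.1 p.2) := by
    have h1 := (I.vel_jc invThm).continuousOn
    rw [continuousOn_univ] at h1
    exact continuous_snd.prodMk h1
  have hp : IsProperMap fun p : B × V => (p.2, I.vel p.1 p.2) := by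
    refine isProperMap_of_comp_of_t2 hc continuous_fst ?_
    exact isProperMap_snd_of_compactSpace
  refine IsClosedEmbedding.of_continuous_injective_isClosedMap hc ?_ hp.isClosedMap
  rintro ⟨ξ, q⟩ ⟨ξ', q'⟩ h
  rw [Prod.mk.injEq] at h
  obtain ⟨h1, h2⟩ := h
  simp only at h1 h2
  subst h1
  rw [I.vel_inj invThm h2]

theorem Xi_cont : ContinuousOn (Xi I) {z | z.2 ≠ 0} := by
  have h1 : ContinuousOn (fun z : V × (V →L[ℝ] ℝ) => (Xi I z, z.1)) {z | z.2 ≠ 0} := by
    rw [(vel_map_closed I).isInducing.continuousOn_iff]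
    refine (continuousOn_fst.prodMk (uv_cont I)).congr fun z hz => ?_
    change (z.1, I.vel (Xi I z) z.1) = _
    rw [vel_Xi I hz]
  exact continuous_fst.comp_continuousOn h1

/-- `D b_ξ(q)` -/
def Db (ξ : B) (q : V) : V →L[ℝ] ℝ := fderiv ℝ (I.b ξ) q

theorem Db_eq (ξ : B) (q : V) : Db I ξ q = I.G q (I.vel ξ q) := I.b_fderiv invThm ξ q

theorem Db_jc : JC (Db I) univ := I.b_jc.fderiv

theorem Db_line (ξ : B) (q : V) : Db I (I.S.line ξ q) q = -Db I ξ q := by
  rw [Db_eq, Db_eq, I.vel_line invThm, map_neg]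

theorem Db_vel (ξ : B) (q : V) : Db I ξ q (I.vel ξ q) = 1 := by
  rw [Db_eq, I.G_vel invThm]

theorem Db_ne (ξ : B) (q : V) : Db I ξ q ≠ 0 := by
  intro h
  have h1 := Db_vel I ξ q
  rw [h] at h1
  exact zero_ne_one h1

theorem Db_Xi {z : V × (V →L[ℝ] ℝ)} (hz : z.2 ≠ 0) : nr I z • Db I (Xi I z) z.1 = z.2 := by
  rw [Db_eq, vel_Xi I hz, G_uv I hz]

theorem smul_Db_ne {c : ℝ} (hc : 0 < c) (ξ : B) (q : V) : c • Db I ξ q ≠ 0 :=
  smul_ne_zero hc.ne' (Db_ne I ξ q)

theorem nr_Db {c : ℝ} (hc : 0 < c) (ξ : B) (q : V) : nr I (q, c • Db I ξ q) = c := by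
  have h1 : n2 I (q, c • Db I ξ q) = c ^ 2 := by
    have h2 : (I.G q).inverse (c • Db I ξ q) = c • I.vel ξ q := by
      rw [Db_eq, ← map_smul, inverse_apply (G_bij I q)]
    rw [n2]
    simp only
    rw [h2, map_smul, smul_apply, Db_vel]
    simp only [smul_eq_mul]
    ring
  rw [nr, h1, Real.sqrt_sq hc.le]

theorem Xi_Db {c : ℝ} (hc : 0 < c) (ξ : B) (q : V) : Xi I (q, c • Db I ξ q) = ξ := by
  have hz : ((q, c • Db I ξ q) : V × (V →L[ℝ] ℝ)).2 ≠ 0 := smul_Db_ne I hc ξ q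
  have h1 := Db_Xi I hz
  rw [nr_Db I hc] at h1
  simp only at h1
  have h2 : Db I (Xi I (q, c • Db I ξ q)) q = Db I ξ q := smul_right_injective _ hc.ne' h1
  have h3 : I.G q (I.vel (Xi I (q, c • Db I ξ q)) q) = I.G q (I.vel ξ q) := by
    rw [← Db_eq, ← Db_eq]
    exact h2
  exact I.vel_inj invThm ((G_bij I q).1 h3)

/-! ### the Hessian function -/

/-- the Hessian function -/
def HH (z : V × (V →L[ℝ] ℝ)) : V →L[ℝ] V →L[ℝ] ℝ := nr I z • H2 I (Xi I z) z.1

theorem HH_Db {c : ℝ} (hc : 0 < c) (ξ : B) (q : V) :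
    HH I (q, c • Db I ξ q) = c • H2 I ξ q := by
  rw [HH, nr_Db I hc, Xi_Db I hc]

theorem HH_smul (q : V) (l : V →L[ℝ] ℝ) {c : ℝ} (hc : 0 < c) :
    HH I (q, c • l) = c • HH I (q, l) := by
  by_cases hl : l = 0
  · have h0 : nr I (q, (0 : V →L[ℝ] ℝ)) = 0 := by
      rw [nr, n2]
      simp
    have h1 : HH I (q, (0 : V →L[ℝ] ℝ)) = 0 := by
      rw [HH, h0]
      ext v w
      simp
    rw [hl, smul_zero, h1]
    ext v w
    simp
  · have hz : ((q, l) : V × (V →L[ℝ] ℝ)).2 ≠ 0 := hl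
    have h1 := Db_Xi I hz
    simp only at h1
    have h2 := nr_pos I hz
    have h3 := HH_Db I h2 (Xi I (q, l)) q
    have h4 := HH_Db I (mul_pos hc h2) (Xi I (q, l)) q
    rw [h1] at h3
    rw [mul_smul, h1] at h4
    rw [h4, h3, mul_smul]

/-! ### the two families -/

/-- the first family, for the parameters `(ξ, q₀, r)` -/
def A1 (y : B × V × ℝ) (a : V) : V × (V →L[ℝ] ℝ) :=
  (y.2.1 + a, y.2.2 • Db I y.1 (y.2.1 + a))

/-- the difference of the levels -/
def kf (y : B × V × ℝ) (a : V) : ℝ := I.b y.1 (y.2.1 + a) - I.b y.1 y.2.1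

/-- the projection to the horosphere -/
def qf (y : B × V × ℝ) (a : V) : V := I.S.psi y.1 (-kf I y a) (y.2.1 + a)

/-- the second family -/
def B1 (y : B × V × ℝ) (a : V) : V × (V →L[ℝ] ℝ) :=
  (qf I y a, -((y.2.2 * Real.exp (kf I y a)) • Db I y.1 (qf I y a)))

theorem JC.pull {Y : Type} [TopologicalSpace Y] {Z : Type} [TopologicalSpace Z] {E F : Type}
    [NormedAddCommGroup E] [NormedSpace ℝ E] [NormedAddCommGroup F] [NormedSpace ℝ F]
    {f : Z → E → F} {c : Y → Z} (hc : Continuous c) (h : JC f univ) :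
    JC (fun y u => f (c y) u) univ :=
  (h.pullback hc).mono isOpen_univ fun _ _ => mem_univ _

theorem JC_q : JC (fun (y : B × V × ℝ) (a : V) => y.2.1 + a) univ :=
  (JC.param' isOpen_univ (by fun_prop)).add (JC.id isOpen_univ)

theorem JC_A1 : JC (A1 I) univ := by
  have h1 : JC (fun (y : B × V × ℝ) q => Db I y.1 q) univ := JC.pull continuous_fst (Db_jc I)
  have h2 : JC (fun (y : B × V × ℝ) (_ : V) => y.2.2) univ :=
    JC.param' isOpen_univ (by fun_prop)
  exact JC_q.prodMk (h2.smul (h1.comp' JC_q fun _ _ => mem_univ _))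

theorem JC_HA1 : JC (fun (y : B × V × ℝ) (a : V) => y.2.2 • H2 I y.1 (y.2.1 + a)) univ := by
  have h1 : JC (fun (y : B × V × ℝ) q => H2 I y.1 q) univ := JC.pull continuous_fst (H2_jc I)
  have h2 : JC (fun (y : B × V × ℝ) (_ : V) => y.2.2) univ :=
    JC.param' isOpen_univ (by fun_prop)
  exact h2.smul (h1.comp' JC_q fun _ _ => mem_univ _)

theorem JC_kf : JC (kf I) univ := by
  have h1 : JC (fun (y : B × V × ℝ) q => I.b y.1 q) univ := JC.pull continuous_fst I.b_jc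
  have h2 : Continuous fun y : B × V × ℝ => I.b y.1 y.2.1 := by
    have h3 := I.b_jc.continuousOn
    rw [continuousOn_univ] at h3
    exact h3.comp (by fun_prop : Continuous fun y : B × V × ℝ => (y.1, y.2.1))
  exact (h1.comp' JC_q fun _ _ => mem_univ _).sub (JC.param' isOpen_univ h2)

theorem JC_qf : JC (qf I) univ := by
  have h1 : JC (fun (y : B × V × ℝ) (p : ℝ × V) => I.S.psi y.1 p.1 p.2) univ :=
    JC.pull continuous_fst (I.S.psi_jc invThm)
  exact h1.comp' ((JC_kf I).neg.prodMk JC_q) fun _ _ => mem_univ _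

theorem JC_rk : JC (fun (y : B × V × ℝ) (a : V) => y.2.2 * Real.exp (kf I y a)) univ :=
  (JC.param' isOpen_univ (by fun_prop)).mul (JC_kf I).exp

theorem JC_B1 : JC (B1 I) univ := by
  have h1 : JC (fun (y : B × V × ℝ) q => Db I y.1 q) univ := JC.pull continuous_fst (Db_jc I)
  exact (JC_qf I).prodMk ((JC_rk I).smul (h1.comp' (JC_qf I) fun _ _ => mem_univ _)).neg

variable (M : Metr L)

theorem JC_HB1 (hH : HessIn I M) (hS : SmoothAlt (Ten.tens M)) :
    JC (fun (y : B × V × ℝ) (a : V) => (y.2.2 * Real.exp (kf I y a)) •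
      H2 I (I.S.line y.1 (qf I y a)) (qf I y a)) univ := by
  have h1 : JC (fun (y : B × V × ℝ) q => H2 I (I.S.line y.1 q) q) univ :=
    JC.pull continuous_fst (hess_line_jc I M invThm hH hS)
  exact (JC_rk I).smul (h1.comp' (JC_qf I) fun _ _ => mem_univ _)

theorem HH_A1 {y : B × V × ℝ} (hy : 0 < y.2.2) (a : V) :
    HH I (A1 I y a) = y.2.2 • H2 I y.1 (y.2.1 + a) := HH_Db I hy _ _

theorem HH_B1 {y : B × V × ℝ} (hy : 0 < y.2.2) (a : V) :
    HH I (B1 I y a) = (y.2.2 * Real.exp (kf I y a)) •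
      H2 I (I.S.line y.1 (qf I y a)) (qf I y a) := by
  have h1 : B1 I y a = (qf I y a, (y.2.2 * Real.exp (kf I y a)) •
      Db I (I.S.line y.1 (qf I y a)) (qf I y a)) := by
    rw [B1, Db_line, smul_neg]
  rw [h1]
  exact HH_Db I (mul_pos hy (Real.exp_pos _)) _ _

/-! ### the parameters -/

/-- the parameters of the first family -/
def pa (z : V × (V →L[ℝ] ℝ)) : B × V × ℝ := (Xi I z, z.1, nr I z)

/-- the parameters of the second family -/
def pb (z : V × (V →L[ℝ] ℝ)) : B × V × ℝ := (I.S.line (Xi I z) z.1, z.1, nr I z)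

theorem pa_cont : ContinuousOn (pa I) {z | z.2 ≠ 0} :=
  (Xi_cont I).prodMk (continuousOn_fst.prodMk (nr_cont I).continuousOn)

theorem pb_cont : ContinuousOn (pb I) {z | z.2 ≠ 0} :=
  (I.S.line_cont.comp_continuousOn ((Xi_cont I).prodMk continuousOn_fst)).prodMk
    (continuousOn_fst.prodMk (nr_cont I).continuousOn)

theorem isOpen_ne0 : IsOpen {z : V × (V →L[ℝ] ℝ) | z.2 ≠ 0} :=
  isOpen_ne_fun continuous_snd continuous_const

theorem JC.pullOn {W : Type} [NormedAddCommGroup W] [NormedSpace ℝ W]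
    {f : B × V × ℝ → V → W} (h : JC f univ) {c : V × (V →L[ℝ] ℝ) → B × V × ℝ}
    (hc : ContinuousOn c {z | z.2 ≠ 0}) :
    JC (fun z a => f (c z) a) {p : (V × (V →L[ℝ] ℝ)) × V | p.1.2 ≠ 0} := by
  refine Ten.JC.of_subtype (V := {z : V × (V →L[ℝ] ℝ) | z.2 ≠ 0}) isOpen_ne0
    (isOpen_ne0.preimage continuous_fst) (fun p hp => hp) ?_
  have hc' := continuousOn_iff_continuous_domRestrict.1 hc
  refine (JC.pull hc' h).mono ?_ fun _ _ => mem_univ _
  exact (isOpen_ne0 (V := V)).preimage (continuous_subtype_val.comp continuous_fst)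

theorem A1_zero {z : V × (V →L[ℝ] ℝ)} (hz : z.2 ≠ 0) : A1 I (pa I z) 0 = z := by
  rw [A1, pa]
  simp only [add_zero]
  rw [Db_Xi I hz]

theorem kf_zero (y : B × V × ℝ) : kf I y 0 = 0 := by
  rw [kf, add_zero, sub_self]

theorem qf_zero (y : B × V × ℝ) : qf I y 0 = y.2.1 := by
  rw [qf, kf_zero, neg_zero, I.S.psi_zero, add_zero]

theorem B1_zero {z : V × (V →L[ℝ] ℝ)} (hz : z.2 ≠ 0) : B1 I (pb I z) 0 = z := by
  rw [B1, qf_zero, kf_zero, Real.exp_zero, mul_one, pb]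
  simp only
  rw [Db_line, smul_neg, neg_neg, Db_Xi I hz]

/-! ### the derivatives at `0` -/

theorem A1_deriv (y : B × V × ℝ) (δ : V) :
    fderiv ℝ (A1 I y) 0 δ = (δ, y.2.2 • H2 I y.1 y.2.1 δ) := by
  have h1 : HasFDerivAt (fun a : V => y.2.1 + a) (ContinuousLinearMap.id ℝ V) 0 :=
    (hasFDerivAt_id (𝕜 := ℝ) (0 : V)).const_add _
  have h2 : HasFDerivAt (Db I y.1) (H2 I y.1 y.2.1) (y.2.1 + 0) := by
    rw [add_zero]
    exact H2_hasFDerivAt I y.1 y.2.1
  have h3 := (h2.comp (0 : V) h1).const_smul y.2.2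
  have h4 := (h1.prodMk h3).fderiv
  change fderiv ℝ (A1 I y) 0 = _ at h4
  rw [h4]
  rfl

/-- the derivative of the projection to the horosphere -/
def Pi (y : B × V × ℝ) (δ : V) : V := δ - (Db I y.1 y.2.1 δ) • I.vel y.1 y.2.1

theorem psi_deriv (η : B) (q : V) (t : ℝ) (v : V) :
    fderiv ℝ (fun z : ℝ × V => I.S.psi η z.1 z.2) (0, q) (t, v) = t • I.vel η q + v := by
  have hd : HasFDerivAt (fun z : ℝ × V => I.S.psi η z.1 z.2)
      (fderiv ℝ (fun z : ℝ × V => I.S.psi η z.1 z.2) (0, q)) (0, q) :=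
    ((I.S.psi_jc invThm).differentiableAt (mem_univ (η, ((0 : ℝ), q)))).hasFDerivAt
  have h1 : ((t, v) : ℝ × V) = t • (1, 0) + (0, v) := by ext1 <;> simp
  have h2 : fderiv ℝ (fun z : ℝ × V => I.S.psi η z.1 z.2) (0, q) (0, v) = v := by
    have h3 : HasFDerivAt (fun q' : V => ((0, q') : ℝ × V)) (ContinuousLinearMap.inr ℝ ℝ V) q := by
      exact (ContinuousLinearMap.inr ℝ ℝ V).hasFDerivAt
    have h4 := hd.comp q h3
    have h5 : ((fun z : ℝ × V => I.S.psi η z.1 z.2) ∘ fun q' : V => ((0, q') : ℝ × V)) = id := by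
      funext q'
      exact I.S.psi_zero η q'
    rw [h5] at h4
    exact DFunLike.congr_fun (h4.unique (hasFDerivAt_id q)) v
  rw [h1, map_add, map_smul, h2]
  rfl

theorem kf_hasFDerivAt (y : B × V × ℝ) : HasFDerivAt (kf I y) (Db I y.1 y.2.1) 0 := by
  have h1 : HasFDerivAt (fun a : V => y.2.1 + a) (ContinuousLinearMap.id ℝ V) 0 :=
    (hasFDerivAt_id (𝕜 := ℝ) (0 : V)).const_add _
  have h2 : HasFDerivAt (I.b y.1) (Db I y.1 y.2.1) (y.2.1 + 0) := by
    rw [add_zero]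
    exact ((b_contDiff I y.1).differentiable (by simp) _).hasFDerivAt
  exact (h2.comp (0 : V) h1).sub_const _

theorem qf_hasFDerivAt (y : B × V × ℝ) : ∃ P : V →L[ℝ] V, (∀ δ, P δ = Pi I y δ) ∧
    HasFDerivAt (qf I y) P 0 := by
  have h1 : HasFDerivAt (fun a : V => y.2.1 + a) (ContinuousLinearMap.id ℝ V) 0 :=
    (hasFDerivAt_id (𝕜 := ℝ) (0 : V)).const_add _
  have h2 : HasFDerivAt (fun a : V => ((-kf I y a, y.2.1 + a) : ℝ × V))
      ((-Db I y.1 y.2.1).prod (ContinuousLinearMap.id ℝ V)) 0 :=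
    (kf_hasFDerivAt I y).neg.prodMk h1
  have h3 : HasFDerivAt (fun z : ℝ × V => I.S.psi y.1 z.1 z.2)
      (fderiv ℝ (fun z : ℝ × V => I.S.psi y.1 z.1 z.2) (0, y.2.1)) (-kf I y 0, y.2.1 + 0) := by
    rw [kf_zero, neg_zero, add_zero]
    exact ((I.S.psi_jc invThm).differentiableAt (mem_univ (y.1, ((0 : ℝ), y.2.1)))).hasFDerivAt
  refine ⟨(fderiv ℝ (fun z : ℝ × V => I.S.psi y.1 z.1 z.2) (0, y.2.1)) ∘L
    ((-Db I y.1 y.2.1).prod (ContinuousLinearMap.id ℝ V)), fun δ => ?_,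
    HasFDerivAt.comp (g := fun z : ℝ × V => I.S.psi y.1 z.1 z.2) (0 : V) h3 h2⟩
  change fderiv ℝ (fun z : ℝ × V => I.S.psi y.1 z.1 z.2) (0, y.2.1) (-(Db I y.1 y.2.1 δ), δ) = _
  rw [psi_deriv, Pi, neg_smul]
  abel

theorem B1_deriv (y : B × V × ℝ) (δ : V) :
    fderiv ℝ (B1 I y) 0 δ = (Pi I y δ, -(y.2.2 • H2 I y.1 y.2.1 (Pi I y δ)
      + (y.2.2 * Db I y.1 y.2.1 δ) • Db I y.1 y.2.1)) := by
  obtain ⟨P, hP, hq⟩ := qf_hasFDerivAt I y
  have h1 : HasFDerivAt (fun a => y.2.2 * Real.exp (kf I y a)) (y.2.2 • Db I y.1 y.2.1) 0 := by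
    have h2 := ((kf_hasFDerivAt I y).exp).const_mul y.2.2
    rw [kf_zero, Real.exp_zero, one_smul] at h2
    exact h2
  have h3 : HasFDerivAt (Db I y.1) (H2 I y.1 y.2.1) (qf I y 0) := by
    rw [qf_zero]
    exact H2_hasFDerivAt I y.1 y.2.1
  have h4 := h3.comp (0 : V) hq
  have h5 := (h1.smul h4).neg
  have h6 := (hq.prodMk h5).fderiv
  change fderiv ℝ (B1 I y) 0 = _ at h6
  rw [h6]
  have e1 : (Db I y.1 ∘ qf I y) 0 = Db I y.1 y.2.1 := by
    simp only [Function.comp, qf_zero]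
  have e2 : y.2.2 * Real.exp (kf I y 0) = y.2.2 := by
    rw [kf_zero, Real.exp_zero, mul_one]
  rw [e1, e2]
  refine Prod.ext (hP δ) ?_
  simp only [ContinuousLinearMap.prod_apply, neg_apply, add_apply, smul_apply,
    ContinuousLinearMap.comp_apply, ContinuousLinearMap.smulRight_apply, hP, smul_eq_mul]

/-! ### transversality -/

theorem transversal (hH : HessIn I M) {z : V × (V →L[ℝ] ℝ)} (hz : z.2 ≠ 0) :
    Function.Bijective (fun p : V × V => fderiv ℝ (A1 I (pa I z)) 0 p.1 +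
      fderiv ℝ (B1 I (pb I z)) 0 p.2) := by
  let T : V × V →ₗ[ℝ] V × (V →L[ℝ] ℝ) :=
    (fderiv ℝ (A1 I (pa I z)) 0).toLinearMap.coprod (fderiv ℝ (B1 I (pb I z)) 0).toLinearMap
  have hT : (fun p : V × V => fderiv ℝ (A1 I (pa I z)) 0 p.1 +
      fderiv ℝ (B1 I (pb I z)) 0 p.2) = T := rfl
  rw [hT]
  have hfin : Module.finrank ℝ (V × V) = Module.finrank ℝ (V × (V →L[ℝ] ℝ)) := by
    rw [Module.finrank_prod, Module.finrank_prod, finrank_dual]
  have hinj : Function.Injective T := by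
    rw [injective_iff_map_eq_zero]
    rintro ⟨δ', δ⟩ h0
    set ξ := Xi I z with hξ
    set q := z.1 with hq
    set η := I.S.line ξ q with hη
    have hr : 0 < nr I z := nr_pos I hz
    have h1 : fderiv ℝ (A1 I (pa I z)) 0 δ' + fderiv ℝ (B1 I (pb I z)) 0 δ = 0 := h0
    rw [A1_deriv, B1_deriv] at h1
    change (δ', nr I z • H2 I ξ q δ') + (Pi I (pb I z) δ, -(nr I z • H2 I η q (Pi I (pb I z) δ)
      + (nr I z * Db I η q δ) • Db I η q)) = 0 at h1
    set π := Pi I (pb I z) δ with hπ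
    set lam := Db I η q δ with hlam
    have hπ' : π = δ - lam • I.vel η q := rfl
    have h2 := congrArg Prod.fst h1
    have h3 := congrArg Prod.snd h1
    simp only [Prod.fst_add, Prod.snd_add, Prod.fst_zero, Prod.snd_zero] at h2 h3
    have h4 : δ' = -π := eq_neg_of_add_eq_zero_left h2
    rw [h4, map_neg] at h3
    have h5 : (H2 I ξ q + H2 I η q) π = -(lam • Db I η q) := by
      have h6 : nr I z • ((H2 I ξ q + H2 I η q) π + lam • Db I η q) = 0 := by
        rw [add_apply, smul_add, smul_add, smul_smul]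
        rw [smul_neg] at h3
        have h7 := neg_eq_zero.2 h3
        rw [neg_add, neg_neg, neg_neg, ← add_assoc] at h7
        exact h7
      exact eq_neg_of_add_eq_zero_left ((smul_eq_zero.1 h6).resolve_left hr.ne')
    have h6 : Db I η q π = 0 := by
      rw [hπ', map_sub, map_smul, Db_vel, smul_eq_mul, mul_one, sub_self]
    have h7 : (H2 I ξ q + H2 I η q) π π = 0 := by
      rw [h5, neg_apply, smul_apply, h6, smul_zero, neg_zero]
    -- the frame
    obtain ⟨x, hx1, hx2, hx3⟩ := I.exists_frame ξ q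
    obtain ⟨c, hc⟩ := (I.E_bij x).2 π
    have h8 := hess_E I M invThm hH x c c
    rw [hx1, hx2, hx3, hc, ← hη, h7] at h8
    have h9 : tl c = 0 := by
      by_contra hne
      exact (Ten.Sf_pos M x hne).ne h8
    have h10 : c 0 = 0 := by
      have e1 : Db I ξ q π = 0 := by
        have e2 := Db_line I ξ q
        rw [← hη] at e2
        have e3 := DFunLike.congr_fun e2 π
        rw [h6, neg_apply] at e3
        exact neg_eq_zero.1 e3.symm
      rw [Db_eq, ← hx1, ← hx2, I.vel_eq invThm, ← hc, I.G_E, real_inner_comm, inner_e0] at e1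
      exact e1
    have h11 : π = 0 := by
      rw [← hc, ← H76.pk_tl c, h9, h10, H76.pk_zero_right, zero_smul, map_zero]
    have h12 : lam = 0 := by
      rw [h11, map_zero] at h5
      have e1 := DFunLike.congr_fun h5 (I.vel η q)
      rw [neg_apply, smul_apply, Db_vel, smul_eq_mul, mul_one, zero_apply] at e1
      exact neg_eq_zero.1 e1.symm
    have h13 : δ = 0 := by
      rw [h12, zero_smul, sub_zero] at hπ'
      rw [← hπ', h11]
    rw [h4, h11, h13, neg_zero]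
    rfl
  exact ⟨hinj, (LinearMap.injective_iff_surjective_of_finrank_eq_finrank hfin).1 hinj⟩

/-! ### the theorem -/

theorem HH_smooth (hH : HessIn I M) (hS : SmoothAlt (Ten.tens M)) :
    ContDiffOn ℝ ∞ (HH I) {z | z.2 ≠ 0} := by
  intro z hz
  have hne : ∀ᶠ z' in 𝓝 z, z' ∈ {z : V × (V →L[ℝ] ℝ) | z.2 ≠ 0} := isOpen_ne0.mem_nhds hz
  have h1 := H289.journe_jc (f := HH I) (α := fun z a => A1 I (pa I z) a)
    (β := fun z a => B1 I (pb I z) a) (z0 := z) (JC.pullOn (JC_A1 I) (pa_cont I))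
    ((JC.pullOn (JC_HA1 I) (pa_cont I)).congr fun p hp => HH_A1 I (nr_pos I hp) _)
    (JC.pullOn (JC_B1 I) (pb_cont I))
    ((JC.pullOn (JC_HB1 I M hH hS) (pb_cont I)).congr fun p hp => HH_B1 I (nr_pos I hp) _)
    hz hz (hne.mono fun z' hz' => A1_zero I hz') (hne.mono fun z' hz' => B1_zero I hz')
    (transversal I M hH hz)
  exact h1.contDiffWithinAt

/-- **(G1)** The Hessian function of the Busemann functions is smooth. -/
theorem exists_hess (hH : HessIn I M) (hS : SmoothAlt (Ten.tens M)) :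
    ∃ H : V → (V →L[ℝ] ℝ) → (V →L[ℝ] V →L[ℝ] ℝ),
      ContDiffOn ℝ ∞ (fun p : V × (V →L[ℝ] ℝ) => H p.1 p.2) {p | p.2 ≠ 0} ∧
      (∀ ξ q, fderiv ℝ (fderiv ℝ (I.b ξ)) q = H q (fderiv ℝ (I.b ξ) q)) ∧
      ∀ q l (c : ℝ), 0 < c → H q (c • l) = c • H q l := by
  refine ⟨fun q l => HH I (q, l), HH_smooth I M hH hS, fun ξ q => ?_, fun q l c hc =>
    HH_smul I q l hc⟩
  have h1 := HH_Db I one_pos ξ q
  rw [one_smul, one_smul] at h1
  exact h1.symm

end Vale.Agent.P207.N3.H266
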