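import Vale.Agent.P207.N3.H862.JC
import Vale.Agent.P207.N3.H266.Metr

/-!
# P207, line N3, package P1g: the calculus of the transition maps
-/

open Set Filter Topology Metric MeasureTheory
open scoped ContDiff

noncomputable section

namespace Vale.Agent.P207.N3.Ten

variable {Γ X B : Type} [Group Γ] [MetricSpace X] [ProperSpace X] [MulAction Γ X]
  [IsIsometricSMul Γ X] [TopologicalSpace B] [CompactSpace B] [T2Space B] [MulAction Γ B]
  [ContinuousConstSMul Γ B] (L : Leaf Γ X B)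

theorem ep_smul (g : Γ) (x : X) : L.ep (g • x) = g • L.ep x := by
  rw [L.ep_flip, L.flip_smul, L.em_smul, ← L.ep_flip]

theorem ep_φ (t : ℝ) (x : X) : L.ep (L.φ t x) = L.ep x := by
  rw [L.ep_flip, L.flip_φ, L.em_φ, ← L.ep_flip]

theorem ep_rot (a : O2) (x : X) : L.ep (L.rot a x) = L.ep x := by
  rw [L.ep_flip, L.flip_rot, L.em_rot, ← L.ep_flip]

theorem ep_cont : Continuous L.ep := by
  have : L.ep = L.em ∘ L.flip := funext fun x => L.ep_flip x
  rw [this]
  exact L.em_cont.comp L.flip_cont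

theorem φ_cont_t (t : ℝ) : Continuous (L.φ t) :=
  L.φ_cont.comp (by fun_prop : Continuous fun x : X => ((t, x) : ℝ × X))

variable {L} {x y z : X} {u w : E2}

theorem ball_sub : ball (0 : E2) 3 ⊆ closedBall 0 3 := ball_subset_closedBall

theorem mem_ball0 : (0 : E2) ∈ ball (0 : E2) 3 := mem_ball_self (by norm_num)

theorem mem_cball0 : (0 : E2) ∈ closedBall (0 : E2) 3 := ball_sub mem_ball0

theorem tau_eq (hw : w ∈ closedBall (0 : E2) 3) (h : L.e y w = L.e x u) : L.τ x y u = w := by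
  have h1 : L.e x u ∈ L.e y '' closedBall 0 3 := ⟨w, hw, h⟩
  have h2 := Function.invFunOn_mem h1
  have h3 := Function.invFunOn_eq h1
  exact L.e_inj y h2 hw (h3.trans h.symm)

theorem mem_dm_iff : u ∈ L.dm x y ↔ u ∈ ball (0 : E2) 3 ∧ L.e x u ∈ L.e y '' ball (0 : E2) 3 :=
  Iff.rfl

theorem mem_dm (hu : u ∈ ball (0 : E2) 3) (hw : w ∈ ball (0 : E2) 3) (h : L.e y w = L.e x u) :
    u ∈ L.dm x y := ⟨hu, w, hw, h⟩

theorem tau_spec (hu : u ∈ L.dm x y) :
    L.τ x y u ∈ ball (0 : E2) 3 ∧ L.e y (L.τ x y u) = L.e x u := by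
  obtain ⟨w, hw, h⟩ := hu.2
  rw [tau_eq (ball_sub hw) h]
  exact ⟨hw, h⟩

theorem tau_mem (hu : u ∈ L.dm x y) : L.τ x y u ∈ ball (0 : E2) 3 := (tau_spec hu).1

theorem e_tau (hu : u ∈ L.dm x y) : L.e y (L.τ x y u) = L.e x u := (tau_spec hu).2

theorem tau_symm_mem (hu : u ∈ L.dm x y) : L.τ x y u ∈ L.dm y x :=
  mem_dm (tau_mem hu) hu.1 (e_tau hu).symm

theorem tau_tau_symm (hu : u ∈ L.dm x y) : L.τ y x (L.τ x y u) = u :=
  tau_eq (ball_sub hu.1) (e_tau hu).symm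

theorem dm_trans (hu : u ∈ L.dm x y) (hw : L.τ x y u ∈ L.dm y z) : u ∈ L.dm x z :=
  mem_dm hu.1 (tau_mem hw) ((e_tau hw).trans (e_tau hu))

theorem tau_trans (hu : u ∈ L.dm x y) (hw : L.τ x y u ∈ L.dm y z) :
    L.τ x z u = L.τ y z (L.τ x y u) :=
  tau_eq (ball_sub (tau_mem hw)) ((e_tau hw).trans (e_tau hu))

theorem dm_trans' (hu : u ∈ L.dm x y) (hw : u ∈ L.dm x z) : L.τ x y u ∈ L.dm y z :=
  mem_dm (tau_mem hu) (tau_mem hw) ((e_tau hw).trans (e_tau hu).symm)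

theorem dm_zero (h : L.ep x ∈ L.e y '' ball (0 : E2) 3) : (0 : E2) ∈ L.dm x y :=
  ⟨mem_ball0, by rwa [L.e_zero]⟩

theorem dm_zero' (hu : u ∈ ball (0 : E2) 3) (h : L.e y u = L.ep x) : (0 : E2) ∈ L.dm x y :=
  dm_zero ⟨u, hu, h⟩

theorem tau_zero' (hu : u ∈ ball (0 : E2) 3) (h : L.e y u = L.ep x) : L.τ x y 0 = u :=
  tau_eq (ball_sub hu) (by rw [h, L.e_zero])

theorem dm_zero_of_ep (h : L.ep x = L.ep y) : (0 : E2) ∈ L.dm x y :=
  dm_zero' mem_ball0 (by rw [L.e_zero, h])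

theorem tau_zero_of_ep (h : L.ep x = L.ep y) : L.τ x y 0 = 0 :=
  tau_zero' mem_ball0 (by rw [L.e_zero, h])

variable (L)

theorem isOpen_dm2 : IsOpen {p : (X × X) × E2 | p.2 ∈ L.dm p.1.1 p.1.2} := by
  have h1 : ContinuousOn (fun p : (X × X) × E2 => ((p.1.2, L.e p.1.1 p.2) : X × B))
      (univ ×ˢ ball (0 : E2) 3) := by
    refine (by fun_prop : Continuous fun p : (X × X) × E2 => p.1.2).continuousOn.prodMk ?_
    exact L.e_cont.comp (f := fun p : (X × X) × E2 => ((p.1.1, p.2) : X × E2)) (by fun_prop)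
      fun p hp => ⟨mem_univ _, ball_sub hp.2⟩
  have h2 := h1.isOpen_inter_preimage (isOpen_univ.prod isOpen_ball) L.e_open
  convert h2 using 1
  ext p
  simp only [mem_ofPred_eq, mem_inter_iff, mem_prod, mem_univ, true_and, mem_preimage]
  exact Iff.rfl

theorem isOpen_dm (x y : X) : IsOpen (L.dm x y) :=
  (isOpen_dm2 L).preimage (by fun_prop : Continuous fun u : E2 => (((x, y), u) : (X × X) × E2))

/-- the pairs of frames of one leaf -/
def Pr : Type := {p : X × X // L.em p.1 = L.em p.2}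

instance : TopologicalSpace (Pr L) := inferInstanceAs (TopologicalSpace {p : X × X // _})

/-- the set of the points at which the transition maps are defined -/
def DM : Set (Pr L × E2) := {q | q.2 ∈ L.dm q.1.1.1 q.1.1.2}

theorem Pr_cont : Continuous fun q : Pr L => q.1 := continuous_subtype_val

/-- the transition maps have jointly continuous derivatives -/
theorem JC_tau : JC (fun (q : Pr L) u => L.τ q.1.1 q.1.2 u) (DM L) := by
  have h1 : Continuous fun q : Pr L × E2 => (((q.1.1.1, q.1.1.2), q.2) : (X × X) × E2) := by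
    have := Pr_cont L
    fun_prop
  refine ⟨(isOpen_dm2 L).preimage h1, fun q => L.tau_smooth _ _ q.2, fun k => ?_⟩
  exact (L.tau_cont k).comp h1.continuousOn fun q hq => ⟨q.1.2, hq⟩

variable {L}

theorem tau_contDiffAt (hxy : L.em x = L.em y) (hu : u ∈ L.dm x y) :
    ContDiffAt ℝ ∞ (L.τ x y) u :=
  (L.tau_smooth x y hxy).contDiffAt ((isOpen_dm L x y).mem_nhds hu)

theorem tau_diff (hxy : L.em x = L.em y) (hu : u ∈ L.dm x y) :
    DifferentiableAt ℝ (L.τ x y) u :=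
  (tau_contDiffAt hxy hu).differentiableAt (by simp)

/-- the chain rule -/
theorem fderiv_tau_trans (hxy : L.em x = L.em y) (hyz : L.em y = L.em z) (hu : u ∈ L.dm x y)
    (hw : L.τ x y u ∈ L.dm y z) :
    fderiv ℝ (L.τ x z) u = fderiv ℝ (L.τ y z) (L.τ x y u) ∘L fderiv ℝ (L.τ x y) u := by
  have h1 : L.τ x z =ᶠ[𝓝 u] L.τ y z ∘ L.τ x y := by
    have h2 : ∀ᶠ v in 𝓝 u, v ∈ L.dm x y := (isOpen_dm L x y).mem_nhds hu
    have h3 : ∀ᶠ v in 𝓝 u, L.τ x y v ∈ L.dm y z :=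
      (tau_diff hxy hu).continuousAt.eventually ((isOpen_dm L y z).mem_nhds hw)
    filter_upwards [h2, h3] with v hv1 hv2
    exact tau_trans hv1 hv2
  rw [h1.fderiv_eq, fderiv_comp u (tau_diff hyz hw) (tau_diff hxy hu)]

/-- the chain rule at the centre -/
theorem fderiv_tau_zero (hxy : L.em x = L.em y) (hyz : L.em y = L.em z)
    (hw : w ∈ ball (0 : E2) 3) (h : L.e y w = L.ep x) (hz : w ∈ L.dm y z) :
    fderiv ℝ (L.τ x z) 0 = fderiv ℝ (L.τ y z) w ∘L fderiv ℝ (L.τ x y) 0 := by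
  have h1 := tau_zero' hw h
  rw [fderiv_tau_trans hxy hyz (dm_zero' hw h) (by rwa [h1]), h1]

theorem tau_self (hu : u ∈ closedBall (0 : E2) 3) : L.τ x x u = u := tau_eq hu rfl

theorem dm_self (hu : u ∈ ball (0 : E2) 3) : u ∈ L.dm x x := mem_dm hu hu rfl

theorem fderiv_tau_self (hu : u ∈ ball (0 : E2) 3) :
    fderiv ℝ (L.τ x x) u = ContinuousLinearMap.id ℝ E2 := by
  have h1 : L.τ x x =ᶠ[𝓝 u] id := by
    filter_upwards [isOpen_ball.mem_nhds hu] with v hv using tau_self (ball_sub hv)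
  rw [h1.fderiv_eq, fderiv_id]

/-- the two derivatives are inverse to each other -/
theorem fderiv_tau_symm (hxy : L.em x = L.em y) (hu : u ∈ L.dm x y) :
    fderiv ℝ (L.τ y x) (L.τ x y u) ∘L fderiv ℝ (L.τ x y) u = ContinuousLinearMap.id ℝ E2 := by
  rw [← fderiv_tau_trans hxy hxy.symm hu (tau_symm_mem hu), fderiv_tau_self hu.1]

/-! ### equivariance -/

theorem tau_smul (g : Γ) (hu : u ∈ L.dm x y) : L.τ (g • x) (g • y) u = L.τ x y u := by
  refine tau_eq (ball_sub (tau_mem hu)) ?_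
  rw [L.e_smul g y _ (ball_sub (tau_mem hu)), L.e_smul g x _ (ball_sub hu.1), e_tau hu]

theorem dm_smul (g : Γ) : L.dm (g • x) (g • y) = L.dm x y := by
  ext u
  constructor
  · rintro ⟨hu, w, hw, h⟩
    refine ⟨hu, w, hw, ?_⟩
    rw [L.e_smul g y _ (ball_sub hw), L.e_smul g x _ (ball_sub hu)] at h
    exact MulAction.injective g h
  · intro hu
    refine ⟨hu.1, L.τ x y u, tau_mem hu, ?_⟩
    rw [L.e_smul g y _ (ball_sub (tau_mem hu)), L.e_smul g x _ (ball_sub hu.1), e_tau hu]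

theorem fderiv_tau_smul (g : Γ) (hu : u ∈ L.dm x y) :
    fderiv ℝ (L.τ (g • x) (g • y)) u = fderiv ℝ (L.τ x y) u := by
  have h1 : L.τ (g • x) (g • y) =ᶠ[𝓝 u] L.τ x y := by
    filter_upwards [(isOpen_dm L x y).mem_nhds hu] with v hv using tau_smul g hv
  exact h1.fderiv_eq

theorem norm_ball (a : O2) {u : E2} {r : ℝ} (hu : u ∈ ball (0 : E2) r) : a u ∈ ball (0 : E2) r := by
  rw [mem_ball_zero_iff] at hu ⊢
  rwa [a.norm_map]

theorem norm_cball (a : O2) {u : E2} {r : ℝ} (hu : u ∈ closedBall (0 : E2) r) :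
    a u ∈ closedBall (0 : E2) r := by
  rw [mem_closedBall_zero_iff] at hu ⊢
  rwa [a.norm_map]

/-- rotation of the first frame -/
theorem tau_rot_left (a : O2) (hu : u ∈ ball (0 : E2) 3) (h : a u ∈ L.dm x y) :
    L.τ (L.rot a x) y u = L.τ x y (a u) :=
  tau_eq (ball_sub (tau_mem h)) (by rw [e_tau h, L.e_rot a x u (ball_sub hu)])

theorem fderiv_tau_rot_left (hxy : L.em x = L.em y) (a : O2) (h : (0 : E2) ∈ L.dm x y) :
    fderiv ℝ (L.τ (L.rot a x) y) 0
      = fderiv ℝ (L.τ x y) 0 ∘L (a.toContinuousLinearEquiv : E2 →L[ℝ] E2) := by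
  have h0 : a 0 = 0 := map_zero a
  have h1 : L.τ (L.rot a x) y =ᶠ[𝓝 0] L.τ x y ∘ a := by
    have h2 : ∀ᶠ v in 𝓝 (0 : E2), a v ∈ L.dm x y := by
      refine a.continuous.continuousAt.eventually ((isOpen_dm L x y).mem_nhds ?_)
      rwa [h0]
    filter_upwards [h2, isOpen_ball.mem_nhds mem_ball0] with v hv hv2
    exact tau_rot_left a hv2 hv
  have h3 : HasFDerivAt (⇑a) (a.toContinuousLinearEquiv : E2 →L[ℝ] E2) 0 :=
    a.toContinuousLinearEquiv.hasFDerivAt
  have h4 : DifferentiableAt ℝ (L.τ x y) (a 0) := by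
    rw [h0]
    exact tau_diff hxy h
  rw [h1.fderiv_eq, fderiv_comp 0 h4 h3.differentiableAt, h3.fderiv, h0]

/-- rotation of the second frame -/
theorem tau_rot_right (a : O2) (h : u ∈ L.dm x y) :
    L.τ x (L.rot a y) u = a.symm (L.τ x y u) := by
  refine tau_eq (norm_cball a.symm (ball_sub (tau_mem h))) ?_
  rw [L.e_rot a y _ (norm_cball a.symm (ball_sub (tau_mem h)))]
  have : a (a.symm (L.τ x y u)) = L.τ x y u := a.apply_symm_apply _
  rw [this, e_tau h]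

theorem fderiv_tau_rot_right (hxy : L.em x = L.em y) (a : O2) (h : u ∈ L.dm x y) :
    fderiv ℝ (L.τ x (L.rot a y)) u
      = (a.symm.toContinuousLinearEquiv : E2 →L[ℝ] E2) ∘L fderiv ℝ (L.τ x y) u := by
  have h1 : L.τ x (L.rot a y) =ᶠ[𝓝 u] a.symm ∘ L.τ x y := by
    filter_upwards [(isOpen_dm L x y).mem_nhds h] with v hv using tau_rot_right a hv
  have h3 : HasFDerivAt (⇑a.symm) (a.symm.toContinuousLinearEquiv : E2 →L[ℝ] E2) (L.τ x y u) :=
    a.symm.toContinuousLinearEquiv.hasFDerivAt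
  rw [h1.fderiv_eq, fderiv_comp u h3.differentiableAt (tau_diff hxy h), h3.fderiv]

end Vale.Agent.P207.N3.Ten
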