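import Vale.Agent.P207.N3.H266.MetrF

/-!
# P207, line N3, package P1g: the stable subspaces as a tensor along the leaves
-/

open Set Filter Topology Metric MeasureTheory
open scoped ContDiff

noncomputable section

namespace Vale.Agent.P207.N3.Ten

variable {Γ X B : Type} [Group Γ] [MetricSpace X] [ProperSpace X] [MulAction Γ X]
  [IsIsometricSMul Γ X] [TopologicalSpace B] [CompactSpace B] [T2Space B] [MulAction Γ B]
  [ContinuousConstSMul Γ B] {L : Leaf Γ X B} (M : Metr L) {x y z : X} {u w : E2}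

/-- `U + U ∘ flip` -/
def Sf (x : X) : E2 →L[ℝ] E2 := M.U x + M.U (L.flip x)

/-- its inverse -/
def Si (x : X) : E2 →L[ℝ] E2 := (Sf M x).inverse

theorem Sf_pos (x : X) {v : E2} (hv : v ≠ 0) : 0 < inner ℝ (Sf M x v) v := by
  have h1 := M.U_pos x v hv
  have h2 := M.U_pos (L.flip x) v hv
  simp only [Sf, add_apply, inner_add_left]
  exact add_pos h1 h2

theorem Sf_inv (x : X) : (Sf M x).IsInvertible := by
  have h1 : Function.Injective (Sf M x) := by
    rw [injective_iff_map_eq_zero]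
    intro v hv
    by_contra h
    have := Sf_pos M x h
    rw [hv, inner_zero_left] at this
    exact lt_irrefl _ this
  refine ⟨(LinearEquiv.ofInjectiveEndo (Sf M x).toLinearMap h1).toContinuousLinearEquiv, ?_⟩
  ext1 v
  rfl

theorem Sf_Si (x : X) : Sf M x ∘L Si M x = ContinuousLinearMap.id ℝ E2 :=
  (Sf_inv M x).self_comp_inverse

theorem Si_Sf (x : X) : Si M x ∘L Sf M x = ContinuousLinearMap.id ℝ E2 :=
  (Sf_inv M x).inverse_comp_self

theorem Sf_Si' (x : X) (v : E2) : Sf M x (Si M x v) = v := DFunLike.congr_fun (Sf_Si M x) v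

theorem Si_Sf' (x : X) (v : E2) : Si M x (Sf M x v) = v := DFunLike.congr_fun (Si_Sf M x) v

theorem Sf_symm (x : X) (v w : E2) : inner ℝ (Sf M x v) w = inner ℝ v (Sf M x w) := by
  simp only [Sf, add_apply, inner_add_left, inner_add_right, M.U_symm]

theorem Si_symm (x : X) (v w : E2) : inner ℝ (Si M x v) w = inner ℝ v (Si M x w) := by
  calc inner ℝ (Si M x v) w = inner ℝ (Si M x v) (Sf M x (Si M x w)) := by rw [Sf_Si']
    _ = inner ℝ (Sf M x (Si M x v)) (Si M x w) := (Sf_symm M x _ _).symm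
    _ = inner ℝ v (Si M x w) := by rw [Sf_Si']

theorem Sf_cont : Continuous (Sf M) := M.U_cont.add (M.U_cont.comp L.flip_cont)

theorem Si_cont : Continuous (Si M) := by
  rw [continuous_iff_continuousAt]
  intro x
  obtain ⟨e, he⟩ := Sf_inv M x
  have h1 : ContinuousAt ContinuousLinearMap.inverse (Sf M x) := by
    rw [← he]
    exact (contDiffAt_map_inverse (n := 0) (𝕜 := ℝ) e).continuousAt
  exact h1.comp (Sf_cont M).continuousAt

theorem Sf_smul (g : Γ) (x : X) : Sf M (g • x) = Sf M x := by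
  rw [Sf, Sf, L.flip_smul, M.U_smul, M.U_smul]

theorem Si_smul (g : Γ) (x : X) : Si M (g • x) = Si M x := by rw [Si, Si, Sf_smul]

theorem Sf_rot (a : O2) (x : X) (v : E2) : Sf M (L.rot a x) v = a.symm (Sf M x (a v)) := by
  simp only [Sf, add_apply, L.flip_rot, M.U_rot, map_add]

theorem Si_rot (a : O2) (x : X) (v : E2) : Si M (L.rot a x) v = a.symm (Si M x (a v)) := by
  have h1 : Sf M (L.rot a x) (a.symm (Si M x (a v))) = v := by
    rw [Sf_rot, a.apply_symm_apply, Sf_Si', a.symm_apply_apply]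
  rw [← h1, Si_Sf', h1]

/-! ### the derivative along the flow -/

theorem flip_riccati (x : X) (t : ℝ) : HasDerivAt (fun s => M.U (L.flip (L.φ s x)))
    (M.U (L.flip (L.φ t x)) ∘L M.U (L.flip (L.φ t x)) + M.K (L.φ t x)) t := by
  have h1 := M.riccati (L.flip x) (-t)
  have h2 : HasDerivAt (fun s : ℝ => -s) (-1) t := hasDerivAt_neg' t
  have h3 := HasDerivAt.scomp (h := fun s : ℝ => -s) (x := t) (g₁ := fun s =>
    M.U (L.φ s (L.flip x))) (h' := -1) h1 h2
  have h4 : (fun s => M.U (L.flip (L.φ s x))) = (fun s => M.U (L.φ s (L.flip x))) ∘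
      (fun s : ℝ => -s) := by
    funext s
    simp only [Function.comp]
    rw [L.flip_φ]
  rw [h4]
  refine h3.congr_deriv ?_
  rw [← L.flip_φ, M.K_flip]
  simp only [neg_smul, one_smul, neg_sub, sub_neg_eq_add]
  abel

theorem Si_deriv (x : X) (t : ℝ) : HasDerivAt (fun s => Si M (L.φ s x))
    (M.U (L.φ t x) ∘L Si M (L.φ t x) + Si M (L.φ t x) ∘L M.U (L.φ t x)
      - ContinuousLinearMap.id ℝ E2) t := by
  set y := L.φ t x with hy
  have h1 : HasDerivAt (fun s => Sf M (L.φ s x))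
      (M.U (L.flip y) ∘L M.U (L.flip y) - M.U y ∘L M.U y) t := by
    have := (M.riccati x t).add (flip_riccati M x t)
    refine this.congr_deriv ?_
    rw [← hy]
    abel
  obtain ⟨e, he⟩ := Sf_inv M y
  have h2 : HasFDerivAt (ContinuousLinearMap.inverse : (E2 →L[ℝ] E2) → E2 →L[ℝ] E2)
      (fderiv ℝ ContinuousLinearMap.inverse (Sf M y)) (Sf M y) := by
    rw [← he]
    exact ((contDiffAt_map_inverse (n := 1) (𝕜 := ℝ) e).differentiableAt (by simp)).hasFDerivAt
  have h3 : HasDerivAt (fun s => Si M (L.φ s x))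
      (fderiv ℝ ContinuousLinearMap.inverse (Sf M y)
        (M.U (L.flip y) ∘L M.U (L.flip y) - M.U y ∘L M.U y)) t :=
    h2.comp_hasDerivAt t h1
  set D := fderiv ℝ ContinuousLinearMap.inverse (Sf M y)
    (M.U (L.flip y) ∘L M.U (L.flip y) - M.U y ∘L M.U y) with hD
  -- differentiate `S ∘ S⁻¹ = 1`
  have h4 : HasDerivAt (fun s => Sf M (L.φ s x) ∘L Si M (L.φ s x))
      ((M.U (L.flip y) ∘L M.U (L.flip y) - M.U y ∘L M.U y) ∘L Si M y + Sf M y ∘L D) t :=
    h1.clm_comp h3
  have h5 : (fun s => Sf M (L.φ s x) ∘L Si M (L.φ s x))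
      = fun _ => ContinuousLinearMap.id ℝ E2 := funext fun s => Sf_Si M _
  rw [h5] at h4
  have h6 := h4.unique (hasDerivAt_const t _)
  have h7 : D = -(Si M y ∘L ((M.U (L.flip y) ∘L M.U (L.flip y) - M.U y ∘L M.U y) ∘L Si M y)) := by
    have h8 : Si M y ∘L (Sf M y ∘L D) = D := by
      rw [← ContinuousLinearMap.comp_assoc, Si_Sf, ContinuousLinearMap.id_comp]
    rw [← h8, eq_neg_of_add_eq_zero_right h6, ContinuousLinearMap.comp_neg]
  rw [h7] at h3
  refine h3.congr_deriv ?_
  -- algebra: `U⁻ = S - U`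
  have hS : M.U (L.flip y) = Sf M y - M.U y := by
    rw [Sf]
    abel
  rw [hS]
  ext1 v
  simp only [neg_apply, ContinuousLinearMap.comp_apply,
    sub_apply, add_apply, map_sub, Sf_Si', Si_Sf',
    ContinuousLinearMap.id_apply]
  abel

variable (L) in
/-- the inverse of the unstable Jacobi tensor -/
def Mf (z : X) (s : ℝ) : E2 →L[ℝ] E2 := fderiv ℝ (L.τ (L.φ s z) z) 0

theorem Mf_deriv (z : X) (t : ℝ) :
    HasDerivAt (Mf L z) (-(Mf L z t ∘L M.U (L.φ t z))) t := M.jac z t

theorem adj_U (x : X) : ContinuousLinearMap.adjoint (M.U x) = M.U x := by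
  symm
  rw [ContinuousLinearMap.eq_adjoint_iff]
  intro v w
  exact M.U_symm x v w

/-- `d/ds (M S⁻¹ Mᵀ) = - M Mᵀ` -/
theorem cj_deriv (z : X) (t : ℝ) :
    HasDerivAt (fun s => cj (Mf L z s) (Si M (L.φ s z)))
      (-cj (Mf L z t) (ContinuousLinearMap.id ℝ E2)) t := by
  have h1 := Mf_deriv M z t
  have h2 := Si_deriv M z t
  have h3 : HasDerivAt (fun s => ContinuousLinearMap.adjoint (Mf L z s))
      (ContinuousLinearMap.adjoint (-(Mf L z t ∘L M.U (L.φ t z)))) t :=
    adjL.hasFDerivAt.comp_hasDerivAt t h1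
  have h4 : HasDerivAt (fun s => Si M (L.φ s z) ∘L ContinuousLinearMap.adjoint (Mf L z s))
      ((M.U (L.φ t z) ∘L Si M (L.φ t z) + Si M (L.φ t z) ∘L M.U (L.φ t z)
          - ContinuousLinearMap.id ℝ E2) ∘L ContinuousLinearMap.adjoint (Mf L z t) +
        Si M (L.φ t z) ∘L ContinuousLinearMap.adjoint (-(Mf L z t ∘L M.U (L.φ t z)))) t :=
    h2.clm_comp h3
  have h5 := h1.clm_comp h4
  refine h5.congr_deriv ?_
  simp only [map_neg, ContinuousLinearMap.adjoint_comp, adj_U, cj]
  ext1 v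
  simp only [neg_apply, ContinuousLinearMap.comp_apply,
    sub_apply, add_apply, map_sub, map_add, map_neg,
    ContinuousLinearMap.id_apply]
  abel

include M in
theorem Mf_cont (z : X) : Continuous (Mf L z) :=
  continuous_iff_continuousAt.2 fun t => (Mf_deriv M z t).continuousAt

theorem cj_int (z : X) (T : ℝ) :
    cj (Mf L z T) (Si M (L.φ T z)) = Si M z
      - ∫ s in (0 : ℝ)..T, cj (Mf L z s) (ContinuousLinearMap.id ℝ E2) := by
  have hc : Continuous fun s => cj (Mf L z s) (ContinuousLinearMap.id ℝ E2) := by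
    have h1 := Mf_cont M z
    have h2 : Continuous fun s => ContinuousLinearMap.adjoint (Mf L z s) :=
      adjL.continuous.comp h1
    exact h1.clm_comp (continuous_const.clm_comp h2)
  have h := intervalIntegral.integral_eq_sub_of_hasDerivAt (a := 0) (b := T)
    (fun t _ => cj_deriv M z t) (hc.neg.intervalIntegrable 0 T)
  have h0 : cj (Mf L z 0) (Si M (L.φ 0 z)) = Si M z := by
    rw [Mf, L.φ_zero, fderiv_tau_self mem_ball0, cj_id]
  rw [h0, intervalIntegral.integral_neg] at h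
  rw [eq_sub_iff_add_eq, ← eq_sub_iff_add_eq'.1 h]
  abel

end Vale.Agent.P207.N3.Ten
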